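import Vale.Agent.P353.Main
import Vale.Agent.P353.XBridge
import Vale.Agent.P353.XFlat

open MeasureTheory
open Complex (I)
open Vale.Agent.P353T

theorem Vale.Agent.Results.P353.Unique.result (N : ℕ) (hN : 2 ≤ N) (ι F : Type) [Fintype ι]
    [DecidableEq ι] [NormedAddCommGroup F] [InnerProductSpace ℂ F] [CompleteSpace F]
    [FiniteDimensional ℂ F] [Nontrivial F]
    (T : ι → Matrix (Fin N) (Fin N) ℂ) (f : ι → ι → ι → ℝ)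
    (hcard : Fintype.card ι = N ^ 2 - 1) (hT1 : ∀ A, (T A).IsHermitian) (hT2 : ∀ A, (T A).trace = 0)
    (hT3 : ∀ A B, (T A * T B).trace = if A = B then 1 else 0)
    (hf : ∀ A B, T A * T B - T B * T A = ∑ C, (I * f A B C) • T C)
    (γ : Fin 9 → Matrix (Fin 16) (Fin 16) ℝ) (hγ1 : ∀ i, (γ i).IsSymm)
    (hγ2 : ∀ i j, γ i * γ j + γ j * γ i = if i = j then (2 : ℝ) • 1 else 0)
    (θ : Fin 16 → ι → F →L[ℂ] F) (hθ1 : ∀ α A, IsSelfAdjoint (θ α A))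
    (hθ2 : ∀ α A β B, θ α A * θ β B + θ β B * θ α A = if α = β ∧ A = B then 1 else 0)
    (hirr : ∀ W : Submodule ℂ F, (∀ α A, ∀ w ∈ W, θ α A w ∈ W) → W = ⊥ ∨ W = ⊤)
    (ρ : Matrix.specialUnitaryGroup (Fin N) ℂ →* (F →L[ℂ] F))
    (hρ1 : ∀ g, ρ g ∈ unitary (F →L[ℂ] F))
    (hρ2 : ∀ g α A, ρ g * θ α A = (∑ B, adj T g B A • θ α B) * ρ g) :
    ∃ ψ : (Fin 9 × ι → ℝ) → F, MemLp ψ 2 volume ∧ ¬ψ =ᵐ[volume] 0 ∧
      ∀ φ : (Fin 9 × ι → ℝ) → F, MemLp φ 2 volume →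
        (ZeroEnergy T f γ θ ρ φ ↔ ∃ c : ℂ, φ =ᵐ[volume] c • ψ) := by
  obtain ⟨M, G, ⟨h⟩, hi, hK⟩ := Vale.Agent.P353.bridge N ι F T f hcard hT1 hT2 hT3 hf γ hγ1 hγ2 θ
    hθ1 hθ2 hirr (ρ.codRestrict _ hρ1) hρ2
  exact Vale.Agent.P353.flat_final' T f γ θ (ρ.codRestrict _ hρ1) (hK ▸ M.unique G hN h hi)
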